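import Crest.Agent.Helper32.Snaky.Gen.R1_0_p33
import Crest.Agent.Helper32.Snaky.Gen.R1_0_p35
import Crest.Agent.Helper32.Snaky.Gen.R1_0_p36
import Crest.Agent.Helper32.Snaky.Gen.R1_0_p37
set_option autoImplicit false
set_option maxRecDepth 100000
set_option linter.all false
set_option Elab.async false
namespace Crest.Agent.Helper32.Snaky.R1_0
@[reducible] def W_38 (d M Bz Z : Nat) : Prop := Crest.Agent.Helper32.Snaky.Wins (nat_lit 17) d M Bz Z
theorem D_38 {d M Bz Z : Nat} (m t1 t2 o1 x1 y1 o2 x2 y2 : Nat) (h : Crest.Agent.Helper32.Snaky.chkDoubleC (nat_lit 17) d M Bz Z m t1 t2 o1 x1 y1 o2 x2 y2 = true) : W_38 d M Bz Z := Crest.Agent.Helper32.Snaky.doubleC m t1 t2 o1 x1 y1 o2 x2 y2 h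
theorem T_38 {d M Bz Z cd cM cBz cZ : Nat} (m t o x y : Nat) (child : W_38 cd cM cBz cZ) (h : Crest.Agent.Helper32.Snaky.chkThreatC (nat_lit 17) d M Bz Z cd cM cBz cZ m t o x y = true) : W_38 d M Bz Z := Crest.Agent.Helper32.Snaky.threatC m t o x y child h
theorem Q_38 {d M Bz Z : Nat} (m : Nat) {l : List Crest.Agent.Helper32.Snaky.Spec} (kids : Crest.Agent.Helper32.Snaky.AllWins (nat_lit 17) l) (h : Crest.Agent.Helper32.Snaky.chkQuiet d M Bz Z m l = true) : W_38 d M Bz Z := Crest.Agent.Helper32.Snaky.quiet m kids h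
theorem C_38 {cd cM cBz cZ : Nat} {l : List Crest.Agent.Helper32.Snaky.Spec} (h : W_38 cd cM cBz cZ) (hl : Crest.Agent.Helper32.Snaky.AllWins (nat_lit 17) l) : Crest.Agent.Helper32.Snaky.AllWins (nat_lit 17) ((cd, cM, cBz, cZ) :: l) := Crest.Agent.Helper32.Snaky.AllWins.cons h hl
theorem N_38 : Crest.Agent.Helper32.Snaky.AllWins (nat_lit 17) [] := Crest.Agent.Helper32.Snaky.AllWins.nil
theorem L100142 : W_38 (nat_lit 19) (nat_lit 0x1000080000000000000000000000000000000) (nat_lit 0x2000040000000000000000000000000000000) (nat_lit 0xff807ff1fff07ffe7fff1fff9fffc7ffe7fff3fff3fff0fffcfffe1ffe0fff83fe007e0) := Q_38 (nat_lit 177) (C_38 L76262 (C_38 L76276 (C_38 L76288 (C_38 L78501 (C_38 L91223 (C_38 L96447 (C_38 L97622 (C_38 L99457 (C_38 L100141 N_38))))))))) (by decide +kernel)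
end Crest.Agent.Helper32.Snaky.R1_0
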