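import Crest.Agent.Helper32.Snaky.Gen.R1_0_p27
import Crest.Agent.Helper32.Snaky.Gen.R1_0_p38
import Crest.Agent.Helper32.Snaky.Gen.R1_0_p44
import Crest.Agent.Helper32.Snaky.Gen.R1_0_p47
import Crest.Agent.Helper32.Snaky.Gen.R1_0_p48
import Crest.Agent.Helper32.Snaky.Gen.R1_0_p49
import Crest.Agent.Helper32.Snaky.Gen.R1_0_p50
set_option autoImplicit false
set_option maxRecDepth 100000
set_option linter.all false
set_option Elab.async false
namespace Crest.Agent.Helper32.Snaky.R1_0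
@[reducible] def W_51 (d M Bz Z : Nat) : Prop := Crest.Agent.Helper32.Snaky.Wins (nat_lit 17) d M Bz Z
theorem D_51 {d M Bz Z : Nat} (m t1 t2 o1 x1 y1 o2 x2 y2 : Nat) (h : Crest.Agent.Helper32.Snaky.chkDoubleC (nat_lit 17) d M Bz Z m t1 t2 o1 x1 y1 o2 x2 y2 = true) : W_51 d M Bz Z := Crest.Agent.Helper32.Snaky.doubleC m t1 t2 o1 x1 y1 o2 x2 y2 h
theorem T_51 {d M Bz Z cd cM cBz cZ : Nat} (m t o x y : Nat) (child : W_51 cd cM cBz cZ) (h : Crest.Agent.Helper32.Snaky.chkThreatC (nat_lit 17) d M Bz Z cd cM cBz cZ m t o x y = true) : W_51 d M Bz Z := Crest.Agent.Helper32.Snaky.threatC m t o x y child h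
theorem Q_51 {d M Bz Z : Nat} (m : Nat) {l : List Crest.Agent.Helper32.Snaky.Spec} (kids : Crest.Agent.Helper32.Snaky.AllWins (nat_lit 17) l) (h : Crest.Agent.Helper32.Snaky.chkQuiet d M Bz Z m l = true) : W_51 d M Bz Z := Crest.Agent.Helper32.Snaky.quiet m kids h
theorem C_51 {cd cM cBz cZ : Nat} {l : List Crest.Agent.Helper32.Snaky.Spec} (h : W_51 cd cM cBz cZ) (hl : Crest.Agent.Helper32.Snaky.AllWins (nat_lit 17) l) : Crest.Agent.Helper32.Snaky.AllWins (nat_lit 17) ((cd, cM, cBz, cZ) :: l) := Crest.Agent.Helper32.Snaky.AllWins.cons h hl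
theorem N_51 : Crest.Agent.Helper32.Snaky.AllWins (nat_lit 17) [] := Crest.Agent.Helper32.Snaky.AllWins.nil
theorem L133544 : W_51 (nat_lit 20) (nat_lit 0x1000000000000000000000000000000000000) (nat_lit 0x2000000000000000000000000000000000000) (nat_lit 0x3ffa7fff3fffbfffefffffffffffffffffffff7fffffffffffeffffffff3fff9fff03ff0) := Q_51 (nat_lit 127) (C_51 L652 (C_51 L931 (C_51 L1594 (C_51 L1736 (C_51 L4721 (C_51 L75188 (C_51 L75757 (C_51 L75899 (C_51 L76130 (C_51 L76246 (C_51 L100142 (C_51 L100272 (C_51 L100335 (C_51 L100453 (C_51 L100527 (C_51 L117249 (C_51 L122034 (C_51 L132629 (C_51 L132835 (C_51 L133142 (C_51 L133370 (C_51 L133438 (C_51 L133543 N_51))))))))))))))))))))))) (by decide +kernel)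
theorem root : Crest.Agent.Helper32.Snaky.Wins (nat_lit 17) (nat_lit 20) (nat_lit 0x1000000000000000000000000000000000000) (nat_lit 0x2000000000000000000000000000000000000) (nat_lit 0x3ffa7fff3fffbfffefffffffffffffffffffff7fffffffffffeffffffff3fff9fff03ff0) := L133544
end Crest.Agent.Helper32.Snaky.R1_0
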