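import Crest.Agent.Helper32.Snaky.Gen.R1_0_p9
import Crest.Agent.Helper32.Snaky.Gen.R1_0_p10
import Crest.Agent.Helper32.Snaky.Gen.R1_0_p11
import Crest.Agent.Helper32.Snaky.Gen.R1_0_p12
import Crest.Agent.Helper32.Snaky.Gen.R1_0_p13
set_option autoImplicit false
set_option maxRecDepth 100000
set_option linter.all false
set_option Elab.async false
namespace Crest.Agent.Helper32.Snaky.R1_0
@[reducible] def W_14 (d M Bz Z : Nat) : Prop := Crest.Agent.Helper32.Snaky.Wins (nat_lit 17) d M Bz Z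
theorem D_14 {d M Bz Z : Nat} (m t1 t2 o1 x1 y1 o2 x2 y2 : Nat) (h : Crest.Agent.Helper32.Snaky.chkDoubleC (nat_lit 17) d M Bz Z m t1 t2 o1 x1 y1 o2 x2 y2 = true) : W_14 d M Bz Z := Crest.Agent.Helper32.Snaky.doubleC m t1 t2 o1 x1 y1 o2 x2 y2 h
theorem T_14 {d M Bz Z cd cM cBz cZ : Nat} (m t o x y : Nat) (child : W_14 cd cM cBz cZ) (h : Crest.Agent.Helper32.Snaky.chkThreatC (nat_lit 17) d M Bz Z cd cM cBz cZ m t o x y = true) : W_14 d M Bz Z := Crest.Agent.Helper32.Snaky.threatC m t o x y child h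
theorem Q_14 {d M Bz Z : Nat} (m : Nat) {l : List Crest.Agent.Helper32.Snaky.Spec} (kids : Crest.Agent.Helper32.Snaky.AllWins (nat_lit 17) l) (h : Crest.Agent.Helper32.Snaky.chkQuiet d M Bz Z m l = true) : W_14 d M Bz Z := Crest.Agent.Helper32.Snaky.quiet m kids h
theorem C_14 {cd cM cBz cZ : Nat} {l : List Crest.Agent.Helper32.Snaky.Spec} (h : W_14 cd cM cBz cZ) (hl : Crest.Agent.Helper32.Snaky.AllWins (nat_lit 17) l) : Crest.Agent.Helper32.Snaky.AllWins (nat_lit 17) ((cd, cM, cBz, cZ) :: l) := Crest.Agent.Helper32.Snaky.AllWins.cons h hl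
theorem N_14 : Crest.Agent.Helper32.Snaky.AllWins (nat_lit 17) [] := Crest.Agent.Helper32.Snaky.AllWins.nil
theorem L62797 : W_14 (nat_lit 18) (nat_lit 0x200000001000080000000000000000000000000000000) (nat_lit 0x400000002000000004000000000000000000000000000) (nat_lit 0x17a00ff01ff81ffe0fff03ff83ffc1ffe1fff07ff83ffc0ffe07ff03ff001f800f00000) := Q_14 (nat_lit 141) (C_14 L31881 (C_14 L31900 (C_14 L33202 (C_14 L33697 (C_14 L33724 (C_14 L37096 (C_14 L38696 (C_14 L39561 (C_14 L40060 (C_14 L40431 (C_14 L54978 (C_14 L59795 (C_14 L59807 (C_14 L59827 (C_14 L59840 (C_14 L61492 (C_14 L61692 (C_14 L61735 (C_14 L62596 (C_14 L62698 (C_14 L62796 N_14))))))))))))))))))))) (by decide +kernel)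
end Crest.Agent.Helper32.Snaky.R1_0
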