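import Crest.Agent.Helper32.Snaky.Gen.R1_0_p17
import Crest.Agent.Helper32.Snaky.Gen.R1_0_p19
import Crest.Agent.Helper32.Snaky.Gen.R1_0_p20
set_option autoImplicit false
set_option maxRecDepth 100000
set_option linter.all false
set_option Elab.async false
namespace Crest.Agent.Helper32.Snaky.R1_0
@[reducible] def W_21 (d M Bz Z : Nat) : Prop := Crest.Agent.Helper32.Snaky.Wins (nat_lit 17) d M Bz Z
theorem D_21 {d M Bz Z : Nat} (m t1 t2 o1 x1 y1 o2 x2 y2 : Nat) (h : Crest.Agent.Helper32.Snaky.chkDoubleC (nat_lit 17) d M Bz Z m t1 t2 o1 x1 y1 o2 x2 y2 = true) : W_21 d M Bz Z := Crest.Agent.Helper32.Snaky.doubleC m t1 t2 o1 x1 y1 o2 x2 y2 h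
theorem T_21 {d M Bz Z cd cM cBz cZ : Nat} (m t o x y : Nat) (child : W_21 cd cM cBz cZ) (h : Crest.Agent.Helper32.Snaky.chkThreatC (nat_lit 17) d M Bz Z cd cM cBz cZ m t o x y = true) : W_21 d M Bz Z := Crest.Agent.Helper32.Snaky.threatC m t o x y child h
theorem Q_21 {d M Bz Z : Nat} (m : Nat) {l : List Crest.Agent.Helper32.Snaky.Spec} (kids : Crest.Agent.Helper32.Snaky.AllWins (nat_lit 17) l) (h : Crest.Agent.Helper32.Snaky.chkQuiet d M Bz Z m l = true) : W_21 d M Bz Z := Crest.Agent.Helper32.Snaky.quiet m kids h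
theorem C_21 {cd cM cBz cZ : Nat} {l : List Crest.Agent.Helper32.Snaky.Spec} (h : W_21 cd cM cBz cZ) (hl : Crest.Agent.Helper32.Snaky.AllWins (nat_lit 17) l) : Crest.Agent.Helper32.Snaky.AllWins (nat_lit 17) ((cd, cM, cBz, cZ) :: l) := Crest.Agent.Helper32.Snaky.AllWins.cons h hl
theorem N_21 : Crest.Agent.Helper32.Snaky.AllWins (nat_lit 17) [] := Crest.Agent.Helper32.Snaky.AllWins.nil
theorem L31806 : W_21 (nat_lit 18) (nat_lit 0x200000001000080000000000000000000000000000000) (nat_lit 0x100000002000000004000000000000000000000000000) (nat_lit 0xff81fff1fff8fffeffff7fffffffbfffdfffe7fff7ffe1fff8fff07fe80fe007f000200) := Q_21 (nat_lit 194) (C_21 L5483 (C_21 L18164 (C_21 L23825 (C_21 L25466 (C_21 L10523 (C_21 L31805 N_21)))))) (by decide +kernel)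
end Crest.Agent.Helper32.Snaky.R1_0
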