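import Crest.Agent.Helper32.Snaky.Gen.R1_0_p14
import Crest.Agent.Helper32.Snaky.Gen.R1_0_p21
import Crest.Agent.Helper32.Snaky.Gen.R1_0_p22
import Crest.Agent.Helper32.Snaky.Gen.R1_0_p23
import Crest.Agent.Helper32.Snaky.Gen.R1_0_p24
import Crest.Agent.Helper32.Snaky.Gen.R1_0_p25
import Crest.Agent.Helper32.Snaky.Gen.R1_0_p26
set_option autoImplicit false
set_option maxRecDepth 100000
set_option linter.all false
set_option Elab.async false
namespace Crest.Agent.Helper32.Snaky.R1_0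
@[reducible] def W_27 (d M Bz Z : Nat) : Prop := Crest.Agent.Helper32.Snaky.Wins (nat_lit 17) d M Bz Z
theorem D_27 {d M Bz Z : Nat} (m t1 t2 o1 x1 y1 o2 x2 y2 : Nat) (h : Crest.Agent.Helper32.Snaky.chkDoubleC (nat_lit 17) d M Bz Z m t1 t2 o1 x1 y1 o2 x2 y2 = true) : W_27 d M Bz Z := Crest.Agent.Helper32.Snaky.doubleC m t1 t2 o1 x1 y1 o2 x2 y2 h
theorem T_27 {d M Bz Z cd cM cBz cZ : Nat} (m t o x y : Nat) (child : W_27 cd cM cBz cZ) (h : Crest.Agent.Helper32.Snaky.chkThreatC (nat_lit 17) d M Bz Z cd cM cBz cZ m t o x y = true) : W_27 d M Bz Z := Crest.Agent.Helper32.Snaky.threatC m t o x y child h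
theorem Q_27 {d M Bz Z : Nat} (m : Nat) {l : List Crest.Agent.Helper32.Snaky.Spec} (kids : Crest.Agent.Helper32.Snaky.AllWins (nat_lit 17) l) (h : Crest.Agent.Helper32.Snaky.chkQuiet d M Bz Z m l = true) : W_27 d M Bz Z := Crest.Agent.Helper32.Snaky.quiet m kids h
theorem C_27 {cd cM cBz cZ : Nat} {l : List Crest.Agent.Helper32.Snaky.Spec} (h : W_27 cd cM cBz cZ) (hl : Crest.Agent.Helper32.Snaky.AllWins (nat_lit 17) l) : Crest.Agent.Helper32.Snaky.AllWins (nat_lit 17) ((cd, cM, cBz, cZ) :: l) := Crest.Agent.Helper32.Snaky.AllWins.cons h hl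
theorem N_27 : Crest.Agent.Helper32.Snaky.AllWins (nat_lit 17) [] := Crest.Agent.Helper32.Snaky.AllWins.nil
theorem L75188 : W_27 (nat_lit 19) (nat_lit 0x1000080000000000000000000000000000000) (nat_lit 0x2000000004000000000000000000000000000) (nat_lit 0xffa1fff1fff8fffeffff7ffffffffffffffff7fffffffdfffeffff7fff0fff87ff00200) := Q_27 (nat_lit 177) (C_27 L4984 (C_27 L5542 (C_27 L5702 (C_27 L5993 (C_27 L7795 (C_27 L8312 (C_27 L8747 (C_27 L11255 (C_27 L11584 (C_27 L16491 (C_27 L16924 (C_27 L17128 (C_27 L17373 (C_27 L18103 (C_27 L31806 (C_27 L62797 (C_27 L65585 (C_27 L66330 (C_27 L66738 (C_27 L67445 (C_27 L71598 (C_27 L73875 (C_27 L74406 (C_27 L74991 (C_27 L75093 (C_27 L75187 N_27)))))))))))))))))))))))))) (by decide +kernel)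
end Crest.Agent.Helper32.Snaky.R1_0
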