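import Crest.Agent.Helper32.Snaky.Gen.R1_0_p31
import Crest.Agent.Helper32.Snaky.Gen.R1_0_p32
set_option autoImplicit false
set_option maxRecDepth 100000
set_option linter.all false
set_option Elab.async false
namespace Crest.Agent.Helper32.Snaky.R1_0
@[reducible] def W_33 (d M Bz Z : Nat) : Prop := Crest.Agent.Helper32.Snaky.Wins (nat_lit 17) d M Bz Z
theorem D_33 {d M Bz Z : Nat} (m t1 t2 o1 x1 y1 o2 x2 y2 : Nat) (h : Crest.Agent.Helper32.Snaky.chkDoubleC (nat_lit 17) d M Bz Z m t1 t2 o1 x1 y1 o2 x2 y2 = true) : W_33 d M Bz Z := Crest.Agent.Helper32.Snaky.doubleC m t1 t2 o1 x1 y1 o2 x2 y2 h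
theorem T_33 {d M Bz Z cd cM cBz cZ : Nat} (m t o x y : Nat) (child : W_33 cd cM cBz cZ) (h : Crest.Agent.Helper32.Snaky.chkThreatC (nat_lit 17) d M Bz Z cd cM cBz cZ m t o x y = true) : W_33 d M Bz Z := Crest.Agent.Helper32.Snaky.threatC m t o x y child h
theorem Q_33 {d M Bz Z : Nat} (m : Nat) {l : List Crest.Agent.Helper32.Snaky.Spec} (kids : Crest.Agent.Helper32.Snaky.AllWins (nat_lit 17) l) (h : Crest.Agent.Helper32.Snaky.chkQuiet d M Bz Z m l = true) : W_33 d M Bz Z := Crest.Agent.Helper32.Snaky.quiet m kids h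
theorem C_33 {cd cM cBz cZ : Nat} {l : List Crest.Agent.Helper32.Snaky.Spec} (h : W_33 cd cM cBz cZ) (hl : Crest.Agent.Helper32.Snaky.AllWins (nat_lit 17) l) : Crest.Agent.Helper32.Snaky.AllWins (nat_lit 17) ((cd, cM, cBz, cZ) :: l) := Crest.Agent.Helper32.Snaky.AllWins.cons h hl
theorem N_33 : Crest.Agent.Helper32.Snaky.AllWins (nat_lit 17) [] := Crest.Agent.Helper32.Snaky.AllWins.nil
theorem L91223 : W_33 (nat_lit 18) (nat_lit 0x200000001000080000000000000000000000000000000) (nat_lit 0x0) (nat_lit 0x5f807ff1fff07ffc7fff1fff9fdfc3dfe0cff073f023e001f0007000000000000000000) := Q_33 (nat_lit 194) (C_33 L79307 (C_33 L79442 (C_33 L79512 (C_33 L79514 (C_33 L80513 (C_33 L81775 (C_33 L81834 (C_33 L82109 (C_33 L82187 (C_33 L82188 (C_33 L84348 (C_33 L84552 (C_33 L86993 (C_33 L88900 (C_33 L89735 (C_33 L89823 (C_33 L89925 (C_33 L90093 (C_33 L90343 (C_33 L90726 (C_33 L90805 (C_33 L90813 (C_33 L90865 (C_33 L91069 (C_33 L91073 (C_33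 L91100 (C_33 L91139 (C_33 L91172 (C_33 L91173 (C_33 L91220 (C_33 L91221 (C_33 L91222 N_33)))))))))))))))))))))))))))))))) (by decide +kernel)
end Crest.Agent.Helper32.Snaky.R1_0
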