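import Crest.Agent.Helper32.Snaky.Gen.R1_0_p7
import Crest.Agent.Helper32.Snaky.Gen.R1_0_p8
set_option autoImplicit false
set_option maxRecDepth 100000
set_option linter.all false
set_option Elab.async false
namespace Crest.Agent.Helper32.Snaky.R1_0
@[reducible] def W_9 (d M Bz Z : Nat) : Prop := Crest.Agent.Helper32.Snaky.Wins (nat_lit 17) d M Bz Z
theorem D_9 {d M Bz Z : Nat} (m t1 t2 o1 x1 y1 o2 x2 y2 : Nat) (h : Crest.Agent.Helper32.Snaky.chkDoubleC (nat_lit 17) d M Bz Z m t1 t2 o1 x1 y1 o2 x2 y2 = true) : W_9 d M Bz Z := Crest.Agent.Helper32.Snaky.doubleC m t1 t2 o1 x1 y1 o2 x2 y2 h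
theorem T_9 {d M Bz Z cd cM cBz cZ : Nat} (m t o x y : Nat) (child : W_9 cd cM cBz cZ) (h : Crest.Agent.Helper32.Snaky.chkThreatC (nat_lit 17) d M Bz Z cd cM cBz cZ m t o x y = true) : W_9 d M Bz Z := Crest.Agent.Helper32.Snaky.threatC m t o x y child h
theorem Q_9 {d M Bz Z : Nat} (m : Nat) {l : List Crest.Agent.Helper32.Snaky.Spec} (kids : Crest.Agent.Helper32.Snaky.AllWins (nat_lit 17) l) (h : Crest.Agent.Helper32.Snaky.chkQuiet d M Bz Z m l = true) : W_9 d M Bz Z := Crest.Agent.Helper32.Snaky.quiet m kids h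
theorem C_9 {cd cM cBz cZ : Nat} {l : List Crest.Agent.Helper32.Snaky.Spec} (h : W_9 cd cM cBz cZ) (hl : Crest.Agent.Helper32.Snaky.AllWins (nat_lit 17) l) : Crest.Agent.Helper32.Snaky.AllWins (nat_lit 17) ((cd, cM, cBz, cZ) :: l) := Crest.Agent.Helper32.Snaky.AllWins.cons h hl
theorem N_9 : Crest.Agent.Helper32.Snaky.AllWins (nat_lit 17) [] := Crest.Agent.Helper32.Snaky.AllWins.nil
theorem L54978 : W_9 (nat_lit 17) (nat_lit 0x200000001200080000000000000000000000000000000) (nat_lit 0x400000002400000004000000000000000000000000000) (nat_lit 0x13a00ff01ff80ffe07ff03ff80ffc0ffe03ff03ff83ffc07fe07ff003f001f800f00000) := Q_9 (nat_lit 160) (C_9 L51312 (C_9 L51317 (C_9 L51328 (C_9 L54977 N_9)))) (by decide +kernel)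
end Crest.Agent.Helper32.Snaky.R1_0
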