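import Crest.Agent.Helper32.Snaky.Gen.R1_1_p2
import Crest.Agent.Helper32.Snaky.Gen.R1_1_p3
import Crest.Agent.Helper32.Snaky.Gen.R1_1_p4
set_option autoImplicit false
set_option maxRecDepth 100000
set_option linter.all false
set_option Elab.async false
namespace Crest.Agent.Helper32.Snaky.R1_1
@[reducible] def W_5 (d M Bz Z : Nat) : Prop := Crest.Agent.Helper32.Snaky.Wins (nat_lit 17) d M Bz Z
theorem D_5 {d M Bz Z : Nat} (m t1 t2 o1 x1 y1 o2 x2 y2 : Nat) (h : Crest.Agent.Helper32.Snaky.chkDoubleC (nat_lit 17) d M Bz Z m t1 t2 o1 x1 y1 o2 x2 y2 = true) : W_5 d M Bz Z := Crest.Agent.Helper32.Snaky.doubleC m t1 t2 o1 x1 y1 o2 x2 y2 h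
theorem T_5 {d M Bz Z cd cM cBz cZ : Nat} (m t o x y : Nat) (child : W_5 cd cM cBz cZ) (h : Crest.Agent.Helper32.Snaky.chkThreatC (nat_lit 17) d M Bz Z cd cM cBz cZ m t o x y = true) : W_5 d M Bz Z := Crest.Agent.Helper32.Snaky.threatC m t o x y child h
theorem Q_5 {d M Bz Z : Nat} (m : Nat) {l : List Crest.Agent.Helper32.Snaky.Spec} (kids : Crest.Agent.Helper32.Snaky.AllWins (nat_lit 17) l) (h : Crest.Agent.Helper32.Snaky.chkQuiet d M Bz Z m l = true) : W_5 d M Bz Z := Crest.Agent.Helper32.Snaky.quiet m kids h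
theorem C_5 {cd cM cBz cZ : Nat} {l : List Crest.Agent.Helper32.Snaky.Spec} (h : W_5 cd cM cBz cZ) (hl : Crest.Agent.Helper32.Snaky.AllWins (nat_lit 17) l) : Crest.Agent.Helper32.Snaky.AllWins (nat_lit 17) ((cd, cM, cBz, cZ) :: l) := Crest.Agent.Helper32.Snaky.AllWins.cons h hl
theorem N_5 : Crest.Agent.Helper32.Snaky.AllWins (nat_lit 17) [] := Crest.Agent.Helper32.Snaky.AllWins.nil
theorem L2563419 : W_5 (nat_lit 20) (nat_lit 0x1000000000000000000000000000000000000) (nat_lit 0x0) (nat_lit 0x800bc03fe01ff87ffe1fff8fbfcfefe7fff3fff9fffcfffc1ffe07ff83fe002a0) := Q_5 (nat_lit 127) (C_5 L615319 (C_5 L1048576 (C_5 L1049108 (C_5 L1115465 (C_5 L1117998 (C_5 L1118042 (C_5 L1158890 (C_5 L1159156 (C_5 L1178920 (C_5 L1186988 (C_5 L1204854 (C_5 L1278410 (C_5 L1283604 (C_5 L1283670 (C_5 L1283672 (C_5 L1283697 (C_5 L1315756 (C_5 L1315758 (C_5 L1315760 (C_5 L1315868 (C_5 L2557499 (C_5 L2562671 (C_5 L2563349 (C_5 L2563418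 N_5)))))))))))))))))))))))) (by decide +kernel)
theorem root : Crest.Agent.Helper32.Snaky.Wins (nat_lit 17) (nat_lit 20) (nat_lit 0x1000000000000000000000000000000000000) (nat_lit 0x0) (nat_lit 0x800bc03fe01ff87ffe1fff8fbfcfefe7fff3fff9fffcfffc1ffe07ff83fe002a0) := L2563419
end Crest.Agent.Helper32.Snaky.R1_1
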